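import Vale.Agent.P192.R2.H360.R.Defs2
import Vale.Agent.P192.H663.Calc

set_option linter.all false

/-! Machines over a group: row R6. -/

namespace Vale.Agent.P192.R2.H435

open Vale.Agent.P192 Vale.Agent.P192.H437 Vale.Agent.P192.R2.H360.R
open scoped Pointwise

variable {H A Q : Type} [Group H]

/-- translation of a configuration -/
def tr (h : H) (z : Cf H A Q) : Cf H A Q := (fun p => z.1 (h⁻¹ * p), h * z.2.1, z.2.2)

theorem tr_one (z : Cf H A Q) : tr 1 z = z := by
  rcases z with ⟨a, b, c⟩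
  simp [tr]

theorem tr_tr (h k : H) (z : Cf H A Q) : tr h (tr k z) = tr (h * k) z := by
  simp [tr, mul_assoc]

theorem tr_head (h : H) (z : Cf H A Q) : (tr h z).2.1 = h * z.2.1 := rfl

theorem mach_tr {T : Finset H} {g : Cf H A Q → Cf H A Q} (hg : Mach T g) (h : H)
    (z : Cf H A Q) : g (tr h z) = tr h (g z) := by
  obtain ⟨h1, h2, h3⟩ := hg
  obtain ⟨e1, e2, e3⟩ := h3 z (tr h z) rfl (by
    intro τ _
    simp [tr, mul_assoc])
  have hhd : (g (tr h z)).2.1 = h * (g z).2.1 := by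
    have : z.2.1⁻¹ * (g z).2.1 = (h * z.2.1)⁻¹ * (g (tr h z)).2.1 := e1
    rw [mul_inv_rev, mul_assoc] at this
    have h4 := mul_left_cancel this
    rw [h4, mul_inv_cancel_left]
  have htp : ∀ p, (g (tr h z)).1 p = (g z).1 (h⁻¹ * p) := by
    intro p
    by_cases hp : z.2.1⁻¹ * (h⁻¹ * p) ∈ T
    · have := e3 _ hp
      have e : (tr h z).2.1 * (z.2.1⁻¹ * (h⁻¹ * p)) = p := by
        change (h * z.2.1) * _ = p
        group
      rw [mul_inv_cancel_left, e] at this
      rw [this]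
    · have h5 : (g z).1 (h⁻¹ * p) = z.1 (h⁻¹ * p) := by
        by_contra hne
        exact hp (h2 z _ hne)
      have h6 : (g (tr h z)).1 p = (tr h z).1 p := by
        by_contra hne
        have := h2 (tr h z) p hne
        apply hp
        have e : (tr h z).2.1⁻¹ * p = z.2.1⁻¹ * (h⁻¹ * p) := by
          change (h * z.2.1)⁻¹ * p = _
          group
        rw [← e]
        exact this
      rw [h5, h6]
      rfl
  refine Prod.ext (funext htp) (Prod.ext hhd ?_)
  exact e2.symm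

theorem exists_word {G : Type} [Group G] {S : Set G} {g : G} (hg : g ∈ Subgroup.closure S) :
    ∃ l : List G, (∀ s ∈ l, s ∈ S ∨ s⁻¹ ∈ S) ∧ l.prod = g := by
  have h : g ∈ (Subgroup.closure S).toSubmonoid := hg
  rw [Subgroup.closure_toSubmonoid] at h
  obtain ⟨l, hl, hlg⟩ := Submonoid.exists_list_of_mem_closure h
  exact ⟨l, fun s hs => hl s hs, hlg⟩

section act

variable [DecidableEq H] {G : Type} [Group G] {S : Set G} {T : Finset H}
  [MulAction G (Cf H A Q)]

theorem smul_tr (hM : MA (H := H) (A := A) (Q := Q) G S T) (g : G) (h : H) (z : Cf H A Q) :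
    g • tr h z = tr h (g • z) := by
  have hg : g ∈ Subgroup.closure S := by rw [hM.gen]; trivial
  obtain ⟨l, hl, rfl⟩ := exists_word hg
  clear hg
  induction l with
  | nil => simp
  | cons s l ih =>
    rw [List.prod_cons, mul_smul, mul_smul, ih (fun y hy => hl y (List.mem_cons_of_mem _ hy))]
    exact mach_tr (hM.mach s (hl s List.mem_cons_self)) h _

/-- the cells different from `a0` are near the head -/
def Good (a0 : A) (T : Finset H) (D : ℕ) (z : Cf H A Q) : Prop :=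
  ∀ p, z.1 p ≠ a0 → z.2.1⁻¹ * p ∈ T ^ D

theorem good_tr {a0 : A} {D : ℕ} {z : Cf H A Q} (h : H) (hz : Good a0 T D z) :
    Good a0 T D (tr h z) := by
  intro p hp
  have := hz (h⁻¹ * p) hp
  have e : (tr h z).2.1⁻¹ * p = z.2.1⁻¹ * (h⁻¹ * p) := by
    change (h * z.2.1)⁻¹ * p = _
    group
  rw [e]
  exact this

theorem good_of_tr {a0 : A} {D : ℕ} {z : Cf H A Q} (h : H) (hz : Good a0 T D (tr h z)) :
    Good a0 T D z := by
  have := good_tr h⁻¹ hz
  rwa [tr_tr, inv_mul_cancel, tr_one] at this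

/-- the type of a configuration -/
def nrm (z : Cf H A Q) : Cf H A Q := tr z.2.1⁻¹ z

theorem nrm_head (z : Cf H A Q) : (nrm z).2.1 = 1 := by
  change z.2.1⁻¹ * z.2.1 = 1
  group

theorem tr_nrm (z : Cf H A Q) : tr z.2.1 (nrm z) = z := by
  rw [nrm, tr_tr, mul_inv_cancel, tr_one]

/-- the good types are finite in number -/
theorem finite_types [Finite A] [Finite Q] (a0 : A) (T : Finset H) (D : ℕ) :
    {t : Cf H A Q | t.2.1 = 1 ∧ Good a0 T D t}.Finite := by
  have : Finite ((↥(T ^ D) → A) × Q) := inferInstance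
  refine Set.Finite.of_finite_image (f := fun t : Cf H A Q =>
    ((fun τ : ↥(T ^ D) => t.1 τ.1, t.2.2) : (↥(T ^ D) → A) × Q)) (Set.toFinite _) ?_
  rintro t ⟨ht1, ht⟩ t' ⟨ht1', ht'⟩ h
  have h1 : ∀ τ : ↥(T ^ D), t.1 τ.1 = t'.1 τ.1 := fun τ => congrFun (Prod.mk.inj h).1 τ
  refine Prod.ext (funext fun p => ?_) (Prod.ext (ht1.trans ht1'.symm) (Prod.mk.inj h).2)
  by_cases hp : p ∈ T ^ D
  · exact h1 ⟨p, hp⟩
  · have e : t.1 p = a0 := by
      by_contra hne
      have := ht p hne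
      rw [ht1, inv_one, one_mul] at this
      exact hp this
    have e' : t'.1 p = a0 := by
      by_contra hne
      have := ht' p hne
      rw [ht1', inv_one, one_mul] at this
      exact hp this
    rw [e, e']

/-- the elements which act on `t` as a translation -/
def stab (hM : MA (H := H) (A := A) (Q := Q) G S T) (t : Cf H A Q) : Subgroup G where
  carrier := {g | ∃ h : H, g • t = tr h t}
  one_mem' := ⟨1, by rw [one_smul, tr_one]⟩
  mul_mem' := by
    rintro a b ⟨h, ha⟩ ⟨k, hb⟩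
    exact ⟨k * h, by rw [mul_smul, hb, smul_tr hM, ha, tr_tr]⟩
  inv_mem' := by
    rintro a ⟨h, ha⟩
    refine ⟨h⁻¹, ?_⟩
    have h1 : a⁻¹ • tr h t = t := by rw [← ha, inv_smul_smul]
    rw [smul_tr hM] at h1
    have h2 := congrArg (tr h⁻¹) h1
    rwa [tr_tr, inv_mul_cancel, tr_one] at h2

theorem orbit_finite [Finite A] [Finite Q] (hH : FPB H) [Group.IsFinitelyPresented G]
    (htor : ∀ x : G, IsOfFinOrder x) (hM : MA (H := H) (A := A) (Q := Q) G S T) (a0 : A) (D : ℕ)
    (t : Cf H A Q) (ht : t.2.1 = 1) (hg : ∀ g : G, Good a0 T D (g • t)) :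
    (MulAction.orbit G t).Finite := by
  set K := stab hM t with hK
  have hfin := finite_types (H := H) (Q := Q) a0 T D
  have hfin' : Finite ↥{t : Cf H A Q | t.2.1 = 1 ∧ Good a0 T D t} := hfin
  -- finite index
  have hq : Finite (G ⧸ K) := by
    refine Finite.of_injective (β := ↥{t : Cf H A Q | t.2.1 = 1 ∧ Good a0 T D t})
      (fun q => ⟨nrm (q.out • t), nrm_head _, good_tr _ (hg _)⟩) ?_
    intro q q' h
    have h1 : nrm (q.out • t) = nrm (q'.out • t) := congrArg Subtype.val h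
    have h2 : q.out • t = tr ((q.out • t).2.1 * (q'.out • t).2.1⁻¹) (q'.out • t) := by
      conv_lhs => rw [← tr_nrm (q.out • t), h1, nrm, tr_tr]
    rw [← QuotientGroup.out_eq' q, ← QuotientGroup.out_eq' q', eq_comm, QuotientGroup.eq]
    refine ⟨(q.out • t).2.1 * (q'.out • t).2.1⁻¹, ?_⟩
    have h3 := congrArg (fun u => q'.out⁻¹ • u) h2
    simp only [smul_tr hM, inv_smul_smul] at h3
    rw [mul_smul]
    exact h3
  have hfi : K.FiniteIndex := Subgroup.finiteIndex_of_finite_quotient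
  have hfp : Group.IsFinitelyPresented K := fp_of_finiteIndex G K
  have hhd : ∀ g : K, g.1 • t = tr (g.1 • t).2.1 t := by
    rintro ⟨g, h, hh⟩
    have : (g • t).2.1 = h := by
      rw [hh]
      change h * t.2.1 = h
      rw [ht, mul_one]
    change g • t = tr (g • t).2.1 t
    rw [this]
    exact hh
  let f : K →* H := MonoidHom.mk' (fun g => ((g.1 • t).2.1)⁻¹) (by
    intro a b
    change (((a.1 * b.1) • t).2.1)⁻¹ = ((a.1 • t).2.1)⁻¹ * ((b.1 • t).2.1)⁻¹
    rw [← mul_inv_rev]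
    congr 1
    rw [mul_smul, hhd b, smul_tr hM, tr_head, tr_head, ht, mul_one])
  have hfr : Finite f.range := hH K hfp (fun x => by
    have := htor x.1
    exact Submonoid.isOfFinOrder_coe.1 this) f
  refine Set.Finite.subset (Set.finite_range
    (fun x : (G ⧸ K) × f.range => x.1.out • tr (x.2.1)⁻¹ t)) ?_
  rintro _ ⟨g, rfl⟩
  have hk : (QuotientGroup.mk g : G ⧸ K).out⁻¹ * g ∈ K := by
    rw [← QuotientGroup.eq, QuotientGroup.out_eq']
  refine ⟨((QuotientGroup.mk g : G ⧸ K), ⟨f ⟨_, hk⟩, ⟨⟨_, hk⟩, rfl⟩⟩), ?_⟩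
  change (QuotientGroup.mk g : G ⧸ K).out • tr ((((_ * g : G) • t).2.1)⁻¹)⁻¹ t = g • t
  rw [inv_inv, ← hhd ⟨_, hk⟩]
  change (QuotientGroup.mk g : G ⧸ K).out • ((QuotientGroup.mk g : G ⧸ K).out⁻¹ * g) • t = g • t
  rw [← mul_smul, mul_inv_cancel_left]

theorem r6 : R6 := by
  intro H _ _ hH A Q _ _ a0 G _ _ htor S T _ hM D
  have hfin := finite_types (H := H) (Q := Q) a0 T D
  have key : ∀ t : Cf H A Q, t ∈ {t : Cf H A Q | t.2.1 = 1 ∧ Good a0 T D t} → ∃ l : ℕ,
      (MulAction.orbit G t).encard ≤ l ∨ ∃ w : Cf H A Q, hop S l t w ∧ ¬ Good a0 T D w := by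
    rintro t ⟨ht, -⟩
    by_cases hg : ∀ g : G, Good a0 T D (g • t)
    · have := orbit_finite hH htor hM a0 D t ht hg
      obtain ⟨n, hn⟩ := this.exists_encard_eq_coe
      exact ⟨n, Or.inl hn.le⟩
    · push Not at hg
      obtain ⟨g, hg⟩ := hg
      have hgm : g ∈ Subgroup.closure S := by rw [hM.gen]; trivial
      obtain ⟨l, hl, rfl⟩ := exists_word hgm
      exact ⟨l.length, Or.inr ⟨_, ⟨l, hl, le_rfl, rfl⟩, hg⟩⟩
  choose! L hL using key
  refine ⟨hfin.toFinset.sup L, fun z hz => ?_⟩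
  have hmem : nrm z ∈ {t : Cf H A Q | t.2.1 = 1 ∧ Good a0 T D t} :=
    ⟨nrm_head z, good_tr _ hz⟩
  have hle : L (nrm z) ≤ hfin.toFinset.sup L := Finset.le_sup (hfin.mem_toFinset.2 hmem)
  rcases hL _ hmem with h | ⟨w, ⟨l, hl, hl2, hl3⟩, hw⟩
  · left
    have hsub : MulAction.orbit G z ⊆ tr z.2.1 '' MulAction.orbit G (nrm z) := by
      rintro _ ⟨g, rfl⟩
      refine ⟨g • nrm z, ⟨g, rfl⟩, ?_⟩
      rw [← smul_tr hM, tr_nrm]
    refine (Set.encard_le_encard hsub).trans ((Set.encard_image_le _ _).trans (h.trans ?_))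
    exact_mod_cast hle
  · right
    refine ⟨tr z.2.1 w, ⟨l, hl, hl2.trans hle, ?_⟩, ?_⟩
    · rw [← hl3, ← smul_tr hM, tr_nrm]
    · by_contra hcon
      push Not at hcon
      exact hw (good_of_tr z.2.1 hcon)

end act

end Vale.Agent.P192.R2.H435
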